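import Vale.Agent.P181.R2.H959.FParts

set_option autoImplicit false

namespace Vale.Agent.P181.FR

open Vale.Agent.P181 Vale.Agent.P181.H280 Vale.Agent.P181.H54

/-- G5 from G3 and G4: the inequality holds for almost all partitions with at most `m` rows,
`m ≤ a ^ κ'`. -/
theorem almost_all_grow_of {δ : ℝ}
    (G3 : ∀ n s G : ℕ, 1 ≤ G → s * ((Parts (n + 3) s).filter (fun lam =>
      (∃ i : Fin (n + 2), (lam i.castSucc : ℕ) < lam i.succ + G) ∨
        (lam (Fin.last _) : ℕ) < G)).card ≤ (n + 3) ^ 5 * G * (Parts (n + 3) s).card)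
    (G4 : ∃ κ : ℝ, 0 < κ ∧ κ < 1 / 20 ∧ ∃ A : ℕ, ∀ (n a b : ℕ) (lam : Fin (n + 3) → ℕ),
      A ≤ a → (n : ℝ) + 3 ≤ (a : ℝ) ^ κ → (1 + δ) * a ≤ b → ∑ i, lam i = a * b →
      (∀ i : Fin (n + 2), (lam i.succ : ℝ) + (a : ℝ) ^ (1 - κ) * b ≤ lam i.castSucc) →
      (a : ℝ) ^ (1 - κ) * b ≤ lam (Fin.last _) →
      plethMult a b (n + 3) lam ≤ plethMult b a (n + 3) lam) :
    ∃ κ C : ℝ, 0 < κ ∧ 0 < C ∧ ∀ n a b : ℕ, 1 ≤ a → (n : ℝ) + 3 ≤ (a : ℝ) ^ κ →
      (1 + δ) * a ≤ b →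
      (({lam ∈ (Parts (n + 3) (a * b) : Set (Fin (n + 3) → Fin (a * b + 1))) |
        ¬ plethMult a b (n + 3) (fun i => lam i) ≤
          plethMult b a (n + 3) (fun i => lam i)}.ncard : ℕ) : ℝ) ≤
        C * (a : ℝ) ^ (-κ) * (Parts (n + 3) (a * b)).card := by
  obtain ⟨κ, hκ, hκ1, A, h4⟩ := G4
  -- the new exponent is `κ / 10`
  obtain ⟨ε, hε⟩ : ∃ ε : ℝ, ε = κ / 10 := ⟨_, rfl⟩
  have hε0 : 0 < ε := by rw [hε]; positivity
  obtain ⟨M, hM⟩ : ∃ M : ℝ, M = (A : ℝ) + 1 := ⟨_, rfl⟩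
  have hM1 : 1 ≤ M := by
    rw [hM]
    have : (0 : ℝ) ≤ A := Nat.cast_nonneg A
    linarith
  refine ⟨ε, M + 2, hε0, by linarith, fun n a b ha hn hb => ?_⟩
  have ha1 : (1 : ℝ) ≤ a := by exact_mod_cast ha
  have ha0 : (0 : ℝ) < a := by linarith
  set N : ℝ := ((Parts (n + 3) (a * b)).card : ℝ) with hN
  have hN0 : 0 ≤ N := by positivity
  set Bad := {lam ∈ (Parts (n + 3) (a * b) : Set (Fin (n + 3) → Fin (a * b + 1))) |
        ¬ plethMult a b (n + 3) (fun i => lam i) ≤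
          plethMult b a (n + 3) (fun i => lam i)} with hBad
  have hpow0 : 0 < (a : ℝ) ^ (-ε) := Real.rpow_pos_of_pos ha0 _
  by_cases hA : a < A
  · -- small `a`
    have h1 : (Bad.ncard : ℝ) ≤ N := by
      have h2 : Bad ⊆ ((Parts (n + 3) (a * b) : Finset _) : Set (Fin (n + 3) → Fin (a * b + 1))) :=
        fun x hx => hx.1
      have h3 := Set.ncard_le_ncard h2 (Finset.finite_toSet _)
      rw [Set.ncard_coe_finset] at h3
      rw [hN]
      exact_mod_cast h3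
    have h2 : 1 ≤ (M + 2) * (a : ℝ) ^ (-ε) := by
      have h3 : (a : ℝ) ^ ε ≤ a := by
        calc (a : ℝ) ^ ε ≤ (a : ℝ) ^ (1 : ℝ) :=
              Real.rpow_le_rpow_of_exponent_le ha1 (by rw [hε]; linarith)
          _ = a := Real.rpow_one _
      have h4' : (a : ℝ) ≤ A := by exact_mod_cast hA.le
      have h5 : (a : ℝ) ^ ε * (a : ℝ) ^ (-ε) = 1 := by
        rw [← Real.rpow_add ha0, add_neg_cancel, Real.rpow_zero]
      have h6 : (a : ℝ) ^ ε ≤ M + 2 := by linarith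
      calc (1 : ℝ) = (a : ℝ) ^ ε * (a : ℝ) ^ (-ε) := h5.symm
        _ ≤ (M + 2) * (a : ℝ) ^ (-ε) := mul_le_mul_of_nonneg_right h6 hpow0.le
    calc (Bad.ncard : ℝ) ≤ 1 * N := by linarith
      _ ≤ (M + 2) * (a : ℝ) ^ (-ε) * N := mul_le_mul_of_nonneg_right h2 hN0
  rw [not_lt] at hA
  -- large `a`; `a ≤ b` is not needed, `b ≥ 1` is
  have hb0 : (0 : ℝ) < b ∨ (b : ℝ) = 0 := by
    rcases Nat.eq_zero_or_pos b with h | h
    · right; exact_mod_cast h
    · left; exact_mod_cast h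
  rcases hb0 with hb0 | hb0
  swap
  · -- `b = 0`: there is nothing to count
    have hb' : b = 0 := by exact_mod_cast hb0
    have hδ1 : 1 + δ ≤ 0 := by
      rw [hb0] at hb
      by_contra hcon
      rw [not_le] at hcon
      have := mul_pos hcon ha0
      linarith
    have hempty : Bad.ncard ≤ (Parts (n + 3) (a * b)).card := by
      have h2 : Bad ⊆ ((Parts (n + 3) (a * b) : Finset _) : Set (Fin (n + 3) → Fin (a * b + 1))) :=
        fun x hx => hx.1
      have h3 := Set.ncard_le_ncard h2 (Finset.finite_toSet _)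
      rwa [Set.ncard_coe_finset] at h3
    have h0 : Bad = ∅ := by
      rw [Set.eq_empty_iff_forall_notMem]
      rintro lam ⟨hlam, hbad⟩
      have hmem : lam ∈ Parts (n + 3) (a * b) := hlam
      unfold Parts at hmem
      rw [Finset.mem_filter] at hmem
      have hz : ∀ i, (lam i : ℕ) = 0 := by
        intro i
        have h5 : ∑ i, (lam i : ℕ) = 0 := by rw [hmem.2.2, hb', mul_zero]
        exact (Finset.sum_eq_zero_iff.1 h5) i (Finset.mem_univ i)
      refine hbad (h4 n a b (fun i => (lam i : ℕ)) hA ?_ hb hmem.2.2 ?_ ?_)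
      · refine hn.trans (Real.rpow_le_rpow_of_exponent_le ha1 ?_)
        rw [hε]; linarith
      · intro i
        rw [hz, hz, hb0]
        simp
      · rw [hz, hb0]
        simp
    rw [h0, Set.ncard_empty]
    have : 0 ≤ (M + 2) * (a : ℝ) ^ (-ε) * N := by positivity
    simpa using this
  -- the gap bound
  set X : ℝ := (a : ℝ) ^ (1 - κ) * b with hX
  have hX0 : 0 < X := mul_pos (Real.rpow_pos_of_pos ha0 _) hb0
  obtain ⟨G, hG⟩ : ∃ G : ℕ, G = ⌈X⌉₊ := ⟨_, rfl⟩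
  have hXG : X ≤ G := by rw [hG]; exact Nat.le_ceil X
  have hGX : (G : ℝ) ≤ X + 1 := by rw [hG]; exact (Nat.ceil_lt_add_one hX0.le).le
  have hG1 : 1 ≤ G := by
    rw [hG]
    exact Nat.one_le_ceil_iff.2 hX0
  have hκn : (n : ℝ) + 3 ≤ (a : ℝ) ^ κ := by
    refine hn.trans (Real.rpow_le_rpow_of_exponent_le ha1 ?_)
    rw [hε]; linarith
  set F := (Parts (n + 3) (a * b)).filter (fun lam =>
      (∃ i : Fin (n + 2), (lam i.castSucc : ℕ) < lam i.succ + G) ∨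
        (lam (Fin.last _) : ℕ) < G) with hF
  have hsub : Bad ⊆ (F : Set (Fin (n + 3) → Fin (a * b + 1))) := by
    rintro lam ⟨hlam, hbad⟩
    rw [hF, Finset.coe_filter]
    refine ⟨hlam, ?_⟩
    by_contra hcon
    rw [not_or, not_exists] at hcon
    obtain ⟨hgap, hlast⟩ := hcon
    have hgap' : ∀ i : Fin (n + 2), (lam i.succ : ℕ) + G ≤ (lam i.castSucc : ℕ) := fun i =>
      not_lt.1 (hgap i)
    have hlast' : G ≤ (lam (Fin.last _) : ℕ) := not_lt.1 hlast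
    have hgapR : ∀ i : Fin (n + 2), ((lam i.succ : ℕ) : ℝ) + G ≤ ((lam i.castSucc : ℕ) : ℝ) :=
      fun i => by exact_mod_cast hgap' i
    have hmem : lam ∈ Parts (n + 3) (a * b) := hlam
    unfold Parts at hmem
    rw [Finset.mem_filter] at hmem
    refine hbad (h4 n a b (fun i => (lam i : ℕ)) hA hκn hb hmem.2.2 ?_ ?_)
    · intro i
      have h0 := hgapR i
      linarith
    · have : (G : ℝ) ≤ ((lam (Fin.last _) : ℕ) : ℝ) := by exact_mod_cast hlast'
      linarith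
  have hcard : (Bad.ncard : ℝ) ≤ F.card := by
    have h1 := Set.ncard_le_ncard hsub (Finset.finite_toSet F)
    rw [Set.ncard_coe_finset] at h1
    exact_mod_cast h1
  refine hcard.trans ?_
  have h7 : (a : ℝ) * b * F.card ≤ ((n : ℝ) + 3) ^ 5 * G * N := by
    have := G3 n (a * b) G hG1
    rw [hN]
    exact_mod_cast this
  have hab0 : 0 < (a : ℝ) * b := by positivity
  -- the power of the number of rows
  have hn5 : ((n : ℝ) + 3) ^ 5 ≤ (a : ℝ) ^ (κ / 2) := by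
    calc ((n : ℝ) + 3) ^ 5 ≤ ((a : ℝ) ^ ε) ^ 5 := pow_le_pow_left₀ (by positivity) hn 5
      _ = (a : ℝ) ^ (κ / 2) := by
        rw [← Real.rpow_natCast, ← Real.rpow_mul ha0.le, hε]
        congr 1
        push_cast
        ring
  have hb1 : (1 : ℝ) ≤ b := by
    have : 0 < b := by exact_mod_cast hb0
    exact_mod_cast this
  have hX1 : 1 ≤ X := by
    rw [hX]
    have : 1 ≤ (a : ℝ) ^ (1 - κ) := Real.one_le_rpow ha1 (by linarith)
    nlinarith
  have hG2 : (G : ℝ) ≤ 2 * X := by linarith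
  have hp : (a : ℝ) ^ (κ / 2) * (a : ℝ) ^ (1 - κ) ≤ a * (a : ℝ) ^ (-ε) := by
    have e1 : (a : ℝ) * (a : ℝ) ^ (-ε) = (a : ℝ) ^ (1 - ε) := by
      rw [sub_eq_add_neg, Real.rpow_add ha0, Real.rpow_one]
    rw [e1, ← Real.rpow_add ha0]
    refine Real.rpow_le_rpow_of_exponent_le ha1 ?_
    rw [hε]
    linarith
  have h12 : (a : ℝ) * b * F.card ≤ a * b * (2 * (a : ℝ) ^ (-ε) * N) := by
    calc (a : ℝ) * b * F.card ≤ ((n : ℝ) + 3) ^ 5 * G * N := h7
      _ ≤ (a : ℝ) ^ (κ / 2) * (2 * X) * N := by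
        refine mul_le_mul_of_nonneg_right ?_ hN0
        exact mul_le_mul hn5 hG2 (Nat.cast_nonneg _) (by positivity)
      _ = 2 * b * ((a : ℝ) ^ (κ / 2) * (a : ℝ) ^ (1 - κ)) * N := by rw [hX]; ring
      _ ≤ 2 * b * (a * (a : ℝ) ^ (-ε)) * N := by
        refine mul_le_mul_of_nonneg_right ?_ hN0
        exact mul_le_mul_of_nonneg_left hp (by positivity)
      _ = a * b * (2 * (a : ℝ) ^ (-ε) * N) := by ring
  have h13 := le_of_mul_le_mul_left h12 hab0
  have h14 : 0 ≤ (a : ℝ) ^ (-ε) * N := by positivity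
  calc (F.card : ℝ) ≤ 2 * (a : ℝ) ^ (-ε) * N := h13
    _ ≤ (M + 2) * (a : ℝ) ^ (-ε) * N := by nlinarith

end Vale.Agent.P181.FR
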