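import Vale.Agent.P181.R2.H207.KDefs

set_option autoImplicit false

namespace Vale.Agent.P181.KT

open Finset

namespace KEleven

/-- K1 -/
def S1 : Prop := ∀ {m c b1 b2 : ℕ} (G : Finset (Fin m → ℕ)) (ν : Fin m → ℕ), (∀ v ∈ G, v ≤ ν) →
  ∑ v ∈ G, NN m c b1 v * NN m c b2 (ν - v) ≤ NN m c (b1 + b2) ν

/-- K2 -/
def S2 : Prop := ∀ {m c b : ℕ} {η x : Fin m → ℝ} {D : ℝ}, Mean m c η x → 0 < D →
  2 * m * b * (c : ℝ) ^ 2 ≤ D ^ 2 →
  ZZ m c η ^ b ≤ 2 * ∑ v ∈ (Mn m (b * c)).filter (fun v => ∀ i, |(v i : ℝ) - b * x i| ≤ D),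
    (NN m c b v : ℝ) * Real.exp (∑ i, η i * (v i : ℝ))

/-- K3 -/
def S3 : Prop := ∀ {m c : ℕ} (x : Fin m → ℝ), 1 ≤ m → 1 ≤ c → ∑ i, x i = c → (∀ i, 0 < x i) →
  ∃ η : Fin m → ℝ, Mean m c η x

/-- K4 -/
def S4 : Prop := ∀ {m c : ℕ} {η x : Fin m → ℝ} (η' : Fin m → ℝ), Mean m c η x →
  ZZ m c η * Real.exp (-∑ i, η i * x i) ≤ ZZ m c η' * Real.exp (-∑ i, η' i * x i)

/-- K5 -/
def S5 : Prop := ∀ (m : ℕ) {κ : ℝ}, 0 < κ → ∃ T : ℝ, 0 < T ∧ ∀ (c : ℕ) (η x : Fin m → ℝ), 1 ≤ c →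
  Mean m c η x → ∑ i, x i = c → (∀ i, κ * c ≤ x i) → ∀ i j, c * (η i - η j) ≤ T

/-- K9 -/
def S9 : Prop := ∀ (m : ℕ) {κ T : ℝ}, 0 < κ → 0 ≤ T → ∃ C b0 : ℕ, ∀ (c b : ℕ)
  (η η' x Δ : Fin m → ℝ), 1 ≤ c → b0 ≤ b → Mean m c η x → ∑ i, x i = c → (∀ i, 0 ≤ x i) →
  (∀ i j, i ≠ j → κ * c ≤ |x i - x j|) → (∀ i j, c * (η i - η j) ≤ T) → ∑ i, Δ i = 0 →
  (∀ i, Δ i ^ 2 ≤ 2 * m * b * (c : ℝ) ^ 2) →
  ZZ m c η ^ b * Real.exp (-∑ i, η i * (b * x i + Δ i)) ≤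
    Real.exp C * (ZZ m c η' ^ b * Real.exp (-∑ i, η' i * (b * x i + Δ i)))

/-- K10 -/
def S10 : Prop := (∀ {m c b : ℕ} (ν : Fin m → ℕ), ∑ i, ν i = b * c → 1 ≤ NN m c b ν) ∧
  ∀ m c : ℕ, 1 ≤ m → ZZ m c 0 ≤ ((c : ℝ) + 1) ^ (m - 1)

lemma num {r r1 r2 : ℝ} (h0 : 0 < r) (h1 : 0 < r1) (h2 : 0 < r2) (hs : r1 ^ 2 + r2 ^ 2 = r ^ 2)
    (h3 : r ^ 2 ≤ 3 * r1 ^ 2) (h4 : r ^ 2 ≤ 2 * r2 ^ 2) : r2 ^ 2 / r + r1 / 6 ≤ r2 := by
  have h5 : r ^ 2 / 3 ≤ r1 * r2 := by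
    have h : (r ^ 2 / 3) ^ 2 ≤ (r1 * r2) ^ 2 := by
      have h6 : r ^ 2 * r ^ 2 ≤ 3 * r1 ^ 2 * (2 * r2 ^ 2) :=
        mul_le_mul h3 h4 (by positivity) (by positivity)
      nlinarith
    exact le_of_sq_le_sq (by simpa using h) (by positivity)
  have h6 : r2 ≤ r := by nlinarith
  have h7 : r1 ^ 2 ≤ (r - r2) * (2 * r) := by
    have : r1 ^ 2 = (r - r2) * (r + r2) := by linarith [hs, sq_nonneg r, (by ring : (r - r2) * (r + r2) = r ^ 2 - r2 ^ 2)]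
    rw [this]
    exact mul_le_mul_of_nonneg_left (by linarith) (by linarith)
  have h8 : r1 * (r ^ 2 / 3) ≤ r2 * ((r - r2) * (2 * r)) := by
    calc r1 * (r ^ 2 / 3) ≤ r1 * (r1 * r2) := mul_le_mul_of_nonneg_left h5 h1.le
      _ = r2 * r1 ^ 2 := by ring
      _ ≤ _ := mul_le_mul_of_nonneg_left h7 h2.le
  have h9 : r1 / 6 * r ≤ r2 * (r - r2) := by
    have : (r1 / 6 * r) * (2 * r) ≤ (r2 * (r - r2)) * (2 * r) := by nlinarith
    exact le_of_mul_le_mul_right this (by linarith)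
  have h10 : r2 ^ 2 / r = r2 ^ 2 * r⁻¹ := div_eq_mul_inv _ _
  have h11 : (r2 ^ 2 / r + r1 / 6) * r ≤ r2 * r := by
    rw [add_mul, div_mul_cancel₀ _ h0.ne']
    nlinarith
  exact le_of_mul_le_mul_right h11 h0

lemma ZZ_pos {m c : ℕ} (hm : 1 ≤ m) (η : Fin m → ℝ) : 0 < ZZ m c η := by
  unfold ZZ
  refine Finset.sum_pos (fun u _ => Real.exp_pos _) ?_
  refine ⟨Pi.single ⟨0, hm⟩ c, ?_⟩
  unfold Mn
  rw [Finset.mem_piAntidiag]
  refine ⟨?_, fun i _ => Finset.mem_univ i⟩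
  rw [Finset.sum_pi_single']
  simp

/-- The bound for one `v`. -/
lemma one_v {m c b b1 b2 : ℕ} {κ A r r1 r2 D L E : ℝ} {ν : Fin m → ℕ} {x η : Fin m → ℝ}
    (hc0 : (0 : ℝ) < c) (hbR0 : (0 : ℝ) < b) (hA0 : 0 < A) (hr0 : 0 < r)
    (hbs : b1 + b2 = b) (hb12R : (b1 : ℝ) ≤ b2)
    (hrs : r ^ 2 = b) (hr2s : r2 ^ 2 = b2) (hE : 0 ≤ E)
    (hnum : r2 ^ 2 / r + r1 / 6 ≤ r2)
    (hν : ∑ i, ν i = b * c)
    (hgap : ∀ i j, i < j → (ν j : ℝ) + (κ * b - A * r) * c ≤ ν i)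
    (hent : ∀ i, (κ * b - A * r) * c ≤ ν i)
    (hxb : ∀ i, (b : ℝ) * x i = ν i) (hxsum : ∑ i, x i = c)
    (hD : D = A / 12 * r1 * c) (hD2 : D ^ 2 = 2 * m * b1 * (c : ℝ) ^ 2)
    (hK9 : ∀ η' Δ : Fin m → ℝ, ∑ i, Δ i = 0 → (∀ i, Δ i ^ 2 ≤ 2 * m * b2 * (c : ℝ) ^ 2) →
      ZZ m c η ^ b2 * Real.exp (-∑ i, η i * (b2 * x i + Δ i)) ≤
        E * (ZZ m c η' ^ b2 * Real.exp (-∑ i, η' i * (b2 * x i + Δ i))))
    (ih : ∀ μ : Fin m → ℕ, ∑ i, μ i = b2 * c →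
      (∀ i j, i < j → (μ j : ℝ) + (κ * b2 - A * r2) * c ≤ μ i) →
      (∀ i, (κ * b2 - A * r2) * c ≤ μ i) →
      ∃ η' : Fin m → ℝ, ZZ m c η' ^ b2 * Real.exp (-∑ i, η' i * (μ i : ℝ)) ≤
        L * NN m c b2 μ)
    (v : Fin m → ℕ) (hle : v ≤ ν) (hv : ∑ i, v i = b1 * c)
    (habs : ∀ i, |(v i : ℝ) - b1 * x i| ≤ D) :
    ZZ m c η ^ b2 * Real.exp (-∑ i, η i * (((ν - v) i : ℕ) : ℝ)) ≤
      E * (L * NN m c b2 (ν - v)) := by
  have hbsR : (b1 : ℝ) + b2 = b := by exact_mod_cast hbs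
  have hcast : ∀ i, (((ν - v) i : ℕ) : ℝ) = (ν i : ℝ) - v i := by
    intro i
    rw [Pi.sub_apply, Nat.cast_sub (hle i)]
  have hsum2 : ∑ i, (ν - v) i = b2 * c := by
    have h11 : ∑ i, (ν - v) i + ∑ i, v i = ∑ i, ν i := by
      rw [← Finset.sum_add_distrib]
      refine Finset.sum_congr rfl fun i _ => ?_
      rw [Pi.sub_apply]
      exact Nat.sub_add_cancel (hle i)
    rw [hv, hν, ← hbs] at h11
    have h12 : (b1 + b2) * c = b2 * c + b1 * c := by ring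
    omega
  have hκ2 : ∀ y : ℝ, (κ * b - A * r) * c ≤ b * y →
      (κ * b2 - A * r2) * c + 2 * D ≤ b2 * y := by
    intro y hy
    have h11 : (κ * b2 - A * r2) * c + 2 * D ≤ (κ * b2 - A * (r2 ^ 2 / r)) * c := by
      have h12 : A * (r2 ^ 2 / r + r1 / 6) ≤ A * r2 := mul_le_mul_of_nonneg_left hnum hA0.le
      have h13 : (A * (r2 ^ 2 / r + r1 / 6)) * c ≤ (A * r2) * c :=
        mul_le_mul_of_nonneg_right h12 hc0.le
      rw [hD]
      linarith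
    refine h11.trans ?_
    have h14 : (b2 / b : ℝ) * ((κ * b - A * r) * c) ≤ (b2 / b : ℝ) * (b * y) :=
      mul_le_mul_of_nonneg_left hy (by positivity)
    have h15 : (b2 / b : ℝ) * (b * y) = b2 * y := by field_simp
    have h16 : (b2 / b : ℝ) * ((κ * b - A * r) * c) = (κ * b2 - A * (r2 ^ 2 / r)) * c := by
      rw [← hrs, ← hr2s]
      field_simp
    rw [h15, h16] at h14
    exact h14
  have hgap2 : ∀ i j, i < j → (((ν - v) j : ℕ) : ℝ) + (κ * b2 - A * r2) * c ≤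
      (((ν - v) i : ℕ) : ℝ) := by
    intro i j hij
    rw [hcast, hcast]
    have h11 : (κ * b - A * r) * c ≤ b * (x i - x j) := by
      have := hgap i j hij
      rw [← hxb i, ← hxb j] at this
      linarith
    have h12 := hκ2 _ h11
    have h13 := (abs_le.1 (habs i)).2
    have h14 := (abs_le.1 (habs j)).1
    rw [← hxb i, ← hxb j, ← hbsR]
    linarith
  have hent2 : ∀ i, (κ * b2 - A * r2) * c ≤ (((ν - v) i : ℕ) : ℝ) := by
    intro i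
    rw [hcast]
    have h11 : (κ * b - A * r) * c ≤ b * x i := by
      rw [hxb i]
      exact hent i
    have h12 := hκ2 _ h11
    have h13 := (abs_le.1 (habs i)).2
    have h15 := (abs_nonneg _).trans (habs i)
    rw [← hxb i, ← hbsR]
    linarith
  obtain ⟨η', hη'⟩ := ih (ν - v) hsum2 hgap2 hent2
  have hfin := hK9 η' (fun i => ((ν i : ℝ) - v i) - b2 * x i) ?_ ?_
  · have e1 : ∀ ζ : Fin m → ℝ, ∑ i, ζ i * (b2 * x i + (((ν i : ℝ) - v i) - b2 * x i)) =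
        ∑ i, ζ i * (((ν - v) i : ℕ) : ℝ) := by
      intro ζ
      refine Finset.sum_congr rfl fun i _ => ?_
      rw [hcast]
      ring
    rw [e1, e1] at hfin
    exact hfin.trans (mul_le_mul_of_nonneg_left hη' hE)
  · have h11 : ∑ i, (((ν i : ℝ) - v i) - b2 * x i) =
        (∑ i, (((ν - v) i : ℕ) : ℝ)) - b2 * ∑ i, x i := by
      rw [Finset.mul_sum, ← Finset.sum_sub_distrib]
      refine Finset.sum_congr rfl fun i _ => ?_
      rw [hcast]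
    rw [h11, hxsum]
    have h12 : (∑ i, (((ν - v) i : ℕ) : ℝ)) = b2 * c := by exact_mod_cast hsum2
    rw [h12, sub_self]
  · intro i
    have h11 : ((ν i : ℝ) - v i) - b2 * x i = -((v i : ℝ) - b1 * x i) := by
      rw [← hxb i, ← hbsR]
      ring
    rw [h11, neg_sq]
    have h12 : ((v i : ℝ) - b1 * x i) ^ 2 ≤ D ^ 2 := by
      rw [← sq_abs]
      exact pow_le_pow_left₀ (abs_nonneg _) (habs i) 2
    rw [hD2] at h12
    refine h12.trans ?_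
    have h13 : 2 * (m : ℝ) * b1 ≤ 2 * m * b2 :=
      mul_le_mul_of_nonneg_left hb12R (by positivity)
    exact mul_le_mul_of_nonneg_right h13 (by positivity)

/-- Putting the pieces together. -/
lemma glue (h1 : S1) {m c b b1 b2 : ℕ} {L E : ℝ} {ν : Fin m → ℕ} {η : Fin m → ℝ}
    (hbs : b1 + b2 = b) (hZ0 : 0 < ZZ m c η) (G : Finset (Fin m → ℕ)) (hGle : ∀ v ∈ G, v ≤ ν)
    (hcheb : ZZ m c η ^ b1 ≤ 2 * ∑ v ∈ G, (NN m c b1 v : ℝ) * Real.exp (∑ i, η i * (v i : ℝ)))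
    (hEL : 0 ≤ E * L)
    (hone : ∀ v ∈ G, ZZ m c η ^ b2 * Real.exp (-∑ i, η i * (((ν - v) i : ℕ) : ℝ)) ≤
      E * (L * NN m c b2 (ν - v))) :
    ZZ m c η ^ b * Real.exp (-∑ i, η i * (ν i : ℝ)) ≤ 2 * (E * L) * NN m c b ν := by
  have hstep : ZZ m c η ^ b * Real.exp (-∑ i, η i * (ν i : ℝ)) ≤
      2 * ∑ v ∈ G, (NN m c b1 v : ℝ) * (E * (L * NN m c b2 (ν - v))) := by
    have h11 : ZZ m c η ^ b = ZZ m c η ^ b1 * ZZ m c η ^ b2 := by rw [← pow_add, hbs]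
    have h12 : 0 ≤ ZZ m c η ^ b2 * Real.exp (-∑ i, η i * (ν i : ℝ)) := by positivity
    calc ZZ m c η ^ b * Real.exp (-∑ i, η i * (ν i : ℝ)) =
          ZZ m c η ^ b1 * (ZZ m c η ^ b2 * Real.exp (-∑ i, η i * (ν i : ℝ))) := by
          rw [h11]; ring
      _ ≤ (2 * ∑ v ∈ G, (NN m c b1 v : ℝ) * Real.exp (∑ i, η i * (v i : ℝ))) *
            (ZZ m c η ^ b2 * Real.exp (-∑ i, η i * (ν i : ℝ))) :=
          mul_le_mul_of_nonneg_right hcheb h12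
      _ = 2 * ∑ v ∈ G, (NN m c b1 v : ℝ) * (ZZ m c η ^ b2 *
            Real.exp (-∑ i, η i * (((ν - v) i : ℕ) : ℝ))) := by
          rw [mul_assoc, Finset.sum_mul]
          congr 1
          refine Finset.sum_congr rfl fun v hv => ?_
          have h13 : Real.exp (-∑ i, η i * (((ν - v) i : ℕ) : ℝ)) =
              Real.exp (∑ i, η i * (v i : ℝ)) * Real.exp (-∑ i, η i * (ν i : ℝ)) := by
            rw [← Real.exp_add]
            congr 1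
            rw [← Finset.sum_neg_distrib, ← Finset.sum_neg_distrib, ← Finset.sum_add_distrib]
            refine Finset.sum_congr rfl fun i _ => ?_
            rw [Pi.sub_apply, Nat.cast_sub (hGle v hv i)]
            ring
          rw [h13]
          ring
      _ ≤ _ := by
          refine mul_le_mul_of_nonneg_left (Finset.sum_le_sum fun v hv => ?_) (by norm_num)
          exact mul_le_mul_of_nonneg_left (hone v hv) (Nat.cast_nonneg _)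
  have hK1 : ∑ v ∈ G, (NN m c b1 v : ℝ) * NN m c b2 (ν - v) ≤ NN m c b ν := by
    have := h1 (c := c) (b1 := b1) (b2 := b2) G ν hGle
    rw [hbs] at this
    exact_mod_cast this
  have hsumeq : 2 * ∑ v ∈ G, (NN m c b1 v : ℝ) * (E * (L * NN m c b2 (ν - v))) =
      2 * (E * L) * ∑ v ∈ G, (NN m c b1 v : ℝ) * NN m c b2 (ν - v) := by
    rw [Finset.mul_sum, Finset.mul_sum]
    refine Finset.sum_congr rfl fun v _ => ?_
    ring
  rw [hsumeq] at hstep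
  exact hstep.trans (mul_le_mul_of_nonneg_left hK1 (by linarith))

/-- Few factors. -/
lemma base (h10 : S10) {m c b b0 q : ℕ} (hm : 1 ≤ m) (hc : 1 ≤ c) (hb : 1 ≤ b) (hbb : b ≤ b0)
    (ν : Fin m → ℕ) (hν : ∑ i, ν i = b * c) :
    ZZ m c 0 ^ b * Real.exp (-∑ i, (0 : Fin m → ℝ) i * (ν i : ℝ)) ≤
      ((c : ℝ) + 1) ^ (m * b0) * (b : ℝ) ^ q * NN m c b ν := by
  have hcR : (1 : ℝ) ≤ c := by exact_mod_cast hc
  have hbR : (1 : ℝ) ≤ b := by exact_mod_cast hb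
  have e1 : Real.exp (-∑ i, (0 : Fin m → ℝ) i * (ν i : ℝ)) = 1 := by simp
  rw [e1, mul_one]
  have hN : (1 : ℝ) ≤ NN m c b ν := by exact_mod_cast h10.1 ν hν
  have hZ := h10.2 m c hm
  have hZ0 := ZZ_pos (c := c) hm 0
  have h11 : ZZ m c 0 ^ b ≤ ((c : ℝ) + 1) ^ (m * b0) := by
    calc ZZ m c 0 ^ b ≤ (((c : ℝ) + 1) ^ (m - 1)) ^ b := pow_le_pow_left₀ hZ0.le hZ b
      _ = ((c : ℝ) + 1) ^ ((m - 1) * b) := (pow_mul _ _ _).symm
      _ ≤ ((c : ℝ) + 1) ^ (m * b0) :=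
        pow_le_pow_right₀ (by linarith) (Nat.mul_le_mul (Nat.sub_le _ _) hbb)
  have h12 : (1 : ℝ) ≤ (b : ℝ) ^ q := one_le_pow₀ hbR
  have h13 : (1 : ℝ) ≤ ((c : ℝ) + 1) ^ (m * b0) := one_le_pow₀ (by linarith)
  calc ZZ m c 0 ^ b ≤ ((c : ℝ) + 1) ^ (m * b0) * 1 * 1 := by linarith
    _ ≤ ((c : ℝ) + 1) ^ (m * b0) * (b : ℝ) ^ q * NN m c b ν := by
      refine mul_le_mul (mul_le_mul_of_nonneg_left h12 (by linarith)) hN (by norm_num) ?_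
      positivity

/-- The mean vector. -/
lemma mean_data {m c b : ℕ} {κ A r : ℝ} {ν : Fin m → ℕ} {x : Fin m → ℝ}
    (hc0 : (0 : ℝ) < c) (hbR0 : (0 : ℝ) < b) (hκ : 0 < κ)
    (hrs : r ^ 2 = b) (hr0 : 0 < r) (hlarge : A ≤ κ * r / 2)
    (hν : ∑ i, ν i = b * c)
    (hgap : ∀ i j, i < j → (ν j : ℝ) + (κ * b - A * r) * c ≤ ν i)
    (hent : ∀ i, (κ * b - A * r) * c ≤ ν i)
    (hxb : ∀ i, (b : ℝ) * x i = ν i) :
    ∑ i, x i = c ∧ (∀ i, κ / 2 * c ≤ x i) ∧ (∀ i, 0 < x i) ∧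
      ∀ i j, i ≠ j → κ / 2 * c ≤ |x i - x j| := by
  have hhalf : κ / 2 * b ≤ κ * b - A * r := by
    rw [← hrs]
    nlinarith
  have hxsum : ∑ i, x i = c := by
    have : (b : ℝ) * ∑ i, x i = b * c := by
      rw [Finset.mul_sum]
      simp only [hxb]
      exact_mod_cast hν
    exact mul_left_cancel₀ hbR0.ne' this
  have hxent : ∀ i, κ / 2 * c ≤ x i := by
    intro i
    have h11 := hent i
    have h12 : κ / 2 * b * c ≤ ν i := le_trans (mul_le_mul_of_nonneg_right hhalf hc0.le) h11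
    rw [← hxb i] at h12
    have h13 : (b : ℝ) * (κ / 2 * c) ≤ b * x i := by linarith
    exact le_of_mul_le_mul_left h13 hbR0
  have hxgap : ∀ i j, i < j → κ / 2 * c ≤ x i - x j := by
    intro i j hij
    have h11 := hgap i j hij
    have h12 : (κ / 2 * b) * c ≤ (κ * b - A * r) * c := mul_le_mul_of_nonneg_right hhalf hc0.le
    rw [← hxb i, ← hxb j] at h11
    have h13 : (b : ℝ) * (κ / 2 * c) ≤ b * (x i - x j) := by linarith
    exact le_of_mul_le_mul_left h13 hbR0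
  have hκc : 0 < κ / 2 * c := by positivity
  refine ⟨hxsum, hxent, fun i => hκc.trans_le (hxent i), ?_⟩
  intro i j hij
  rcases lt_or_gt_of_ne hij with h | h
  · exact (hxgap i j h).trans (le_abs_self _)
  · rw [abs_sub_comm]
    exact (hxgap j i h).trans (le_abs_self _)

/-- The radius is smaller than the entries. -/
lemma radius {c b b2 : ℕ} {κ A r r1 D y : ℝ} (hc0 : (0 : ℝ) < c) (hκ : 0 < κ) (hr0 : 0 < r)
    (hr10 : 0 < r1) (hrs : r ^ 2 = b) (h11 : r1 ≤ r) (hlarge : A ≤ κ * r / 2)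
    (hb2hR : (b : ℝ) ≤ 2 * b2) (hD : D = A / 12 * r1 * c) (hy : κ / 2 * c ≤ y) :
    D ≤ b2 * y := by
  have h12 : A * r1 ≤ κ * r / 2 * r := mul_le_mul hlarge h11 hr10.le (by positivity)
  have h13 : D ≤ b2 * (κ / 2 * c) := by
    have h14 : κ * r / 2 * r = κ / 2 * b := by rw [← hrs]; ring
    rw [h14] at h12
    have h15 : A / 12 * r1 ≤ b2 * (κ / 2) := by
      have h16 : κ / 2 * b ≤ κ / 2 * (2 * b2) := mul_le_mul_of_nonneg_left hb2hR (by positivity)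
      have h17 : 0 ≤ (b2 : ℝ) * (κ / 2) := by positivity
      linarith
    calc D = A / 12 * r1 * c := hD
      _ ≤ b2 * (κ / 2) * c := mul_le_mul_of_nonneg_right h15 hc0.le
      _ = _ := by ring
  exact h13.trans (mul_le_mul_of_nonneg_left hy (Nat.cast_nonneg _))

/-- The induction. -/
theorem main (h1 : S1) (h2 : S2) (h3 : S3) (h5 : S5) (h9 : S9) (h10 : S10)
    (m : ℕ) (hm : 1 ≤ m) {κ : ℝ} (hκ : 0 < κ) : ∃ b0 q : ℕ, ∀ c b : ℕ, 1 ≤ c → 1 ≤ b →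
    ∀ ν : Fin m → ℕ, ∑ i, ν i = b * c →
    (∀ i j, i < j → (ν j : ℝ) + (κ * b - 12 * √(2 * m) * √b) * c ≤ ν i) →
    (∀ i, (κ * b - 12 * √(2 * m) * √b) * c ≤ ν i) →
    ∃ η' : Fin m → ℝ, ZZ m c η' ^ b * Real.exp (-∑ i, η' i * (ν i : ℝ)) ≤
      ((c : ℝ) + 1) ^ (m * b0) * (b : ℝ) ^ q * NN m c b ν := by
  obtain ⟨T, hT0, hT⟩ := h5 m (κ := κ / 2) (by positivity)
  obtain ⟨C, bK, hC⟩ := h9 m (κ := κ / 2) (T := T) (by positivity) hT0.le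
  obtain ⟨A, hA⟩ : ∃ A : ℝ, A = 12 * √(2 * m) := ⟨_, rfl⟩
  have hmR : (1 : ℝ) ≤ m := by exact_mod_cast hm
  have hA0 : 0 < A := by
    rw [hA]
    have : 0 < √(2 * (m : ℝ)) := Real.sqrt_pos.2 (by positivity)
    positivity
  have hA2 : (A / 12) ^ 2 = 2 * m := by
    rw [hA]
    have : 12 * √(2 * (m : ℝ)) / 12 = √(2 * (m : ℝ)) := by ring
    rw [this]
    exact Real.sq_sqrt (by positivity)
  rw [← hA]
  obtain ⟨q, hq⟩ : ∃ q : ℕ, 2 * Real.exp C ≤ (3 / 2 : ℝ) ^ q :=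
    (pow_unbounded_of_one_lt (2 * Real.exp C) (by norm_num : (1 : ℝ) < 3 / 2)).imp fun _ h => h.le
  obtain ⟨b0, hb0⟩ : ∃ b0 : ℕ, b0 = 2 * bK + 3 + ⌈(2 * A / κ) ^ 2⌉₊ := ⟨_, rfl⟩
  refine ⟨b0, q, ?_⟩
  intro c b hc
  have hcR : (1 : ℝ) ≤ c := by exact_mod_cast hc
  have hc0 : (0 : ℝ) < c := by linarith
  induction b using Nat.strong_induction_on with
  | _ b ih =>
  intro hb ν hν hgap hent
  have hbR : (1 : ℝ) ≤ b := by exact_mod_cast hb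
  have hbR0 : (0 : ℝ) < b := by linarith
  by_cases hbb : b ≤ b0
  · exact ⟨0, base h10 hm hc hb hbb ν hν⟩
  rw [not_le] at hbb
  -- the two halves
  obtain ⟨b1, hb1⟩ : ∃ b1, b1 = b / 2 := ⟨_, rfl⟩
  obtain ⟨b2, hb2⟩ : ∃ b2, b2 = b - b1 := ⟨_, rfl⟩
  have hbs : b1 + b2 = b := by omega
  have hb1p : 1 ≤ b1 := by omega
  have hb12 : b1 ≤ b2 := by omega
  have hb1t : b ≤ 3 * b1 := by omega
  have hb2h : b ≤ 2 * b2 := by omega
  have hb2t : 3 * b2 ≤ 2 * b := by omega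
  have hb2p : 1 ≤ b2 := by omega
  have hb2l : b2 < b := by omega
  have hbK : bK ≤ b2 := by omega
  have hbsR : (b1 : ℝ) + b2 = b := by exact_mod_cast hbs
  have hb1R : (1 : ℝ) ≤ b1 := by exact_mod_cast hb1p
  have hb2R : (1 : ℝ) ≤ b2 := by exact_mod_cast hb2p
  have hb12R : (b1 : ℝ) ≤ b2 := by exact_mod_cast hb12
  have hb1tR : (b : ℝ) ≤ 3 * b1 := by exact_mod_cast hb1t
  have hb2hR : (b : ℝ) ≤ 2 * b2 := by exact_mod_cast hb2h
  have hb2tR : 3 * (b2 : ℝ) ≤ 2 * b := by exact_mod_cast hb2t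
  obtain ⟨r, hr⟩ : ∃ r, r = √(b : ℝ) := ⟨_, rfl⟩
  obtain ⟨r1, hr1⟩ : ∃ r1, r1 = √(b1 : ℝ) := ⟨_, rfl⟩
  obtain ⟨r2, hr2⟩ : ∃ r2, r2 = √(b2 : ℝ) := ⟨_, rfl⟩
  have hr0 : 0 < r := by rw [hr]; exact Real.sqrt_pos.2 hbR0
  have hr10 : 0 < r1 := by rw [hr1]; exact Real.sqrt_pos.2 (by linarith)
  have hr20 : 0 < r2 := by rw [hr2]; exact Real.sqrt_pos.2 (by linarith)
  have hrs : r ^ 2 = b := by rw [hr]; exact Real.sq_sqrt hbR0.le
  have hr1s : r1 ^ 2 = b1 := by rw [hr1]; exact Real.sq_sqrt (by linarith)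
  have hr2s : r2 ^ 2 = b2 := by rw [hr2]; exact Real.sq_sqrt (by linarith)
  have hr1r : r1 ≤ r := by
    rw [hr1, hr]
    exact Real.sqrt_le_sqrt (by linarith)
  have hnum := num hr0 hr10 hr20 (by rw [hrs, hr1s, hr2s]; exact hbsR)
    (by rw [hrs, hr1s]; exact hb1tR) (by rw [hrs, hr2s]; exact hb2hR)
  rw [← hr] at hgap hent
  -- `b` is large
  have hlarge : A ≤ κ * r / 2 := by
    have h11 : (2 * A / κ) ^ 2 ≤ r ^ 2 := by
      rw [hrs]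
      have h12 : ⌈(2 * A / κ) ^ 2⌉₊ ≤ b := by omega
      exact (Nat.le_ceil _).trans (by exact_mod_cast h12)
    have h12 : 2 * A / κ ≤ r := le_of_sq_le_sq (by simpa using h11) hr0.le
    rw [div_le_iff₀ hκ] at h12
    linarith
  -- the mean
  obtain ⟨x, hx⟩ : ∃ x : Fin m → ℝ, x = fun i => (ν i : ℝ) / b := ⟨_, rfl⟩
  have hxb : ∀ i, (b : ℝ) * x i = ν i := by
    intro i
    rw [hx]
    field_simp
  obtain ⟨hxsum, hxent, hxpos, hxgap'⟩ := mean_data hc0 hbR0 hκ hrs hr0 hlarge hν hgap hent hxb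
  obtain ⟨η, hη⟩ := h3 x hm hc hxsum hxpos
  have hηT := hT c η x hc hη hxsum hxent
  -- the radius
  obtain ⟨D, hD⟩ : ∃ D : ℝ, D = A / 12 * r1 * c := ⟨_, rfl⟩
  have hD0 : 0 < D := by rw [hD]; positivity
  have hD2 : D ^ 2 = 2 * m * b1 * (c : ℝ) ^ 2 := by
    calc D ^ 2 = (A / 12) ^ 2 * r1 ^ 2 * (c : ℝ) ^ 2 := by rw [hD]; ring
      _ = _ := by rw [hA2, hr1s]
  have hcheb := h2 (b := b1) hη hD0 hD2.ge
  have hDb : ∀ i, D ≤ b2 * x i := fun i =>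
    radius hc0 hκ hr0 hr10 hrs hr1r hlarge hb2hR hD (hxent i)
  obtain ⟨G, hG⟩ : ∃ G, G = (Mn m (b1 * c)).filter (fun v => ∀ i, |(v i : ℝ) - b1 * x i| ≤ D) :=
    ⟨_, rfl⟩
  rw [← hG] at hcheb
  have hGabs : ∀ v ∈ G, ∀ i, |(v i : ℝ) - b1 * x i| ≤ D := fun v hv => by
    rw [hG] at hv
    exact (Finset.mem_filter.1 hv).2
  have hGsum : ∀ v ∈ G, ∑ i, v i = b1 * c := by
    intro v hv
    rw [hG] at hv
    have := (Finset.mem_filter.1 hv).1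
    unfold Mn at this
    rw [Finset.mem_piAntidiag] at this
    exact this.1
  have hGle : ∀ v ∈ G, v ≤ ν := by
    intro v hv i
    have h11 := (abs_le.1 (hGabs v hv i)).2
    have h12 := hDb i
    have h13 := hxb i
    have h14 : (v i : ℝ) ≤ ν i := by
      rw [← h13, ← hbsR]
      linarith
    exact_mod_cast h14
  obtain ⟨L, hL⟩ : ∃ L : ℝ, L = ((c : ℝ) + 1) ^ (m * b0) * (b2 : ℝ) ^ q := ⟨_, rfl⟩
  have hL0 : 0 ≤ L := by rw [hL]; positivity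
  have ih2 := ih b2 hb2l hb2p
  rw [← hr2, ← hL] at ih2
  have hone : ∀ v ∈ G, ZZ m c η ^ b2 * Real.exp (-∑ i, η i * (((ν - v) i : ℕ) : ℝ)) ≤
      Real.exp C * (L * NN m c b2 (ν - v)) := fun v hv =>
    one_v hc0 hbR0 hA0 hr0 hbs hb12R hrs hr2s (Real.exp_pos _).le hnum hν hgap hent hxb hxsum
      hD hD2 (fun η' Δ hΔ hΔ2 => hC c b2 η η' x Δ hc hbK hη hxsum (fun i => (hxpos i).le) hxgap'
        hηT hΔ hΔ2) ih2 v (hGle v hv) (hGsum v hv) (hGabs v hv)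
  -- put together
  refine ⟨η, ?_⟩
  have hglue := glue h1 hbs (ZZ_pos (c := c) hm η) G hGle hcheb (by positivity) hone
  refine hglue.trans (mul_le_mul_of_nonneg_right ?_ (Nat.cast_nonneg _))
  have hpow : 2 * Real.exp C * (b2 : ℝ) ^ q ≤ (b : ℝ) ^ q := by
    have h11 : (3 / 2 : ℝ) * b2 ≤ b := by linarith
    calc 2 * Real.exp C * (b2 : ℝ) ^ q ≤ (3 / 2 : ℝ) ^ q * (b2 : ℝ) ^ q :=
          mul_le_mul_of_nonneg_right hq (by positivity)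
      _ = (3 / 2 * b2 : ℝ) ^ q := (mul_pow _ _ _).symm
      _ ≤ (b : ℝ) ^ q := pow_le_pow_left₀ (by positivity) h11 q
  have h11 : 2 * (Real.exp C * L) = ((c : ℝ) + 1) ^ (m * b0) * (2 * Real.exp C * (b2 : ℝ) ^ q) := by
    rw [hL]; ring
  rw [h11]
  exact mul_le_mul_of_nonneg_left hpow (by positivity)

end KEleven

open KEleven in
/-- K11, from K1, K2, K3, K4, K5, K9 and K10. -/
theorem k11_of (h1 : S1) (h2 : S2) (h3 : S3) (h4 : S4) (h5 : S5) (h9 : S9) (h10 : S10) :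
    ∀ (m : ℕ) {κ : ℝ}, 0 < κ → ∃ P : ℕ, ∀ (c b : ℕ) (ν : Fin m → ℕ)
      (η : Fin m → ℝ), 1 ≤ c → 1 ≤ b → ∑ i, ν i = b * c →
      (∀ i j, i < j → (ν j : ℝ) + κ * (b * c) ≤ ν i) → (∀ i, κ * (b * c) ≤ ν i) →
      Mean m c η (fun i => (ν i : ℝ) / b) →
      ZZ m c η ^ b * Real.exp (-∑ i, η i * (ν i : ℝ)) ≤ ((b : ℝ) * c + 1) ^ P * NN m c b ν := by
  intro m κ hκ
  rcases Nat.eq_zero_or_pos m with hm | hm
  · subst hm
    refine ⟨0, ?_⟩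
    intro c b ν η hc hb hν
    exfalso
    rw [Finset.univ_eq_empty, Finset.sum_empty] at hν
    have : 0 < b * c := Nat.mul_pos hb hc
    omega
  obtain ⟨b0, q, hmain⟩ := main h1 h2 h3 h5 h9 h10 m hm hκ
  refine ⟨m * b0 + q, ?_⟩
  intro c b ν η hc hb hν hgap hent hη
  have hcR : (1 : ℝ) ≤ c := by exact_mod_cast hc
  have hbR : (1 : ℝ) ≤ b := by exact_mod_cast hb
  have hbR0 : (0 : ℝ) < b := by linarith
  have hthr : (κ * b - 12 * √(2 * m) * √b) * c ≤ κ * (b * c) := by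
    have h11 : 0 ≤ 12 * √(2 * (m : ℝ)) * √(b : ℝ) * c := by positivity
    linarith
  obtain ⟨η', hη'⟩ := hmain c b hc hb ν hν (fun i j hij => by linarith [hgap i j hij])
    (fun i => hthr.trans (hent i))
  have hK4 := h4 η' hη
  have hpow : ∀ ζ : Fin m → ℝ, (ZZ m c ζ * Real.exp (-∑ i, ζ i * ((ν i : ℝ) / b))) ^ b =
      ZZ m c ζ ^ b * Real.exp (-∑ i, ζ i * (ν i : ℝ)) := by
    intro ζ
    rw [mul_pow, ← Real.exp_nat_mul]
    congr 2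
    rw [mul_neg, Finset.mul_sum]
    congr 1
    refine Finset.sum_congr rfl fun i _ => ?_
    field_simp
  have h12 : ZZ m c η ^ b * Real.exp (-∑ i, η i * (ν i : ℝ)) ≤
      ZZ m c η' ^ b * Real.exp (-∑ i, η' i * (ν i : ℝ)) := by
    rw [← hpow, ← hpow]
    have hZ0 := ZZ_pos (c := c) hm η
    exact pow_le_pow_left₀ (by positivity) hK4 b
  refine h12.trans (hη'.trans ?_)
  refine mul_le_mul_of_nonneg_right ?_ (Nat.cast_nonneg _)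
  rw [pow_add]
  have h13 : (c : ℝ) + 1 ≤ b * c + 1 := by nlinarith
  have h14 : (b : ℝ) ≤ b * c + 1 := by nlinarith
  exact mul_le_mul (pow_le_pow_left₀ (by positivity) h13 _) (pow_le_pow_left₀ (by positivity) h14 _)
    (by positivity) (by positivity)

end Vale.Agent.P181.KT
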