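import Vale.Agent.P181.R2.H553.CDefs
import Vale.Agent.P181.R2.H553.Six
import Vale.Agent.P181.R2.H644.BRows
import Mathlib.Algebra.MvPolynomial.Funext

/-!
ROW C0 (polarization): a polynomial in `r` points whose symmetrisation does not vanish at some
points gives a nonzero highest weight vector.
-/

set_option autoImplicit false

open scoped TensorProduct
open MvPolynomial

namespace Vale.Agent.P181.H553

open Vale.Agent.P181 Vale.Agent.P181.H280 Vale.Agent.P181.H179 Vale.Agent.P181.FR

namespace CZero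

/-- The measure with weights `τ l` at the points `p l`. -/
noncomputable def ms {r : ℕ} (p : Fin r → Pt) (τ : Fin r → ℂ) : Meas :=
  ∑ l : Fin r, Finsupp.single (p l) (τ l)

lemma ms_sum {r : ℕ} (p : Fin r → Pt) (τ : Fin r → ℂ) (g : Pt → ℂ) :
    ∑ a ∈ (ms p τ).support, (ms p τ) a * g a = ∑ l, τ l * g (p l) := by
  classical
  have h1 : ∑ a ∈ (ms p τ).support, (ms p τ) a * g a = (ms p τ).sum fun a w => w * g a := rfl
  rw [h1]
  unfold ms
  rw [← Finsupp.sum_finsetSum_index (fun _ => zero_mul _) (fun _ _ _ => add_mul _ _ _)]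
  refine Finset.sum_congr rfl fun l _ => ?_
  rw [Finsupp.sum_single_index (zero_mul _)]

lemma integ_ms {r : ℕ} (p : Fin r → Pt) (τ : Fin r → ℂ) (n : ℕ) :
    ∀ F : (Fin n → Pt) → ℂ, integ (ms p τ) F =
      ∑ f : Fin n → Fin r, (∏ l, τ (f l)) * F (fun l => p (f l)) := by
  induction n with
  | zero =>
    intro F
    rw [integ_zero, Fintype.sum_unique]
    rw [Finset.univ_eq_empty, Finset.prod_empty, one_mul]
    congr 1
    funext l
    exact l.elim0
  | succ n ih =>
    intro F
    rw [integ_succ]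
    rw [ms_sum p τ (fun a => integ (ms p τ) (fun q : Fin n → Pt => F (Fin.cons a q)))]
    simp only [ih]
    rw [← (Fin.consEquiv (fun _ : Fin (n + 1) => Fin r)).sum_comp, Fintype.sum_prod_type]
    refine Finset.sum_congr rfl fun l _ => ?_
    rw [Finset.mul_sum]
    refine Finset.sum_congr rfl fun f _ => ?_
    have e1 : (Fin.consEquiv (fun _ : Fin (n + 1) => Fin r)) (l, f) = Fin.cons l f := rfl
    rw [e1, Fin.prod_univ_succ]
    have e2 : (fun i => p ((Fin.cons l f : Fin (n + 1) → Fin r) i)) =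
        (Fin.cons (p l) (fun i => p (f i)) : Fin (n + 1) → Pt) := by
      funext i
      refine Fin.cases ?_ (fun i => ?_) i
      · rfl
      · rfl
    rw [e2]
    simp only [Fin.cons_zero, Fin.cons_succ]
    ring

/-- The coefficient of `τ_1 ⋯ τ_r`. -/
lemma sum_perm_eq_zero {r : ℕ} (g : (Fin r → Fin r) → ℂ)
    (h : ∀ τ : Fin r → ℂ, ∑ f : Fin r → Fin r, (∏ l, τ (f l)) * g f = 0) :
    ∑ σ : Equiv.Perm (Fin r), g σ = 0 := by
  classical
  set P : MvPolynomial (Fin r) ℂ := ∑ f : Fin r → Fin r, (∏ l, X (f l)) * C (g f) with hP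
  have hP0 : P = 0 := by
    refine MvPolynomial.funext fun τ => ?_
    rw [hP, map_sum, map_zero]
    simp only [map_mul, map_prod, eval_X, eval_C]
    exact h τ
  set m : Fin r →₀ ℕ := ∑ l : Fin r, Finsupp.single l 1 with hm
  have hc : ∀ f : Fin r → Fin r, coeff m ((∏ l, X (f l)) * C (g f) : MvPolynomial (Fin r) ℂ) =
      if (∑ l, Finsupp.single (f l) 1 : Fin r →₀ ℕ) = m then g f else 0 := by
    intro f
    have e1 : (∏ l, X (f l) : MvPolynomial (Fin r) ℂ) =
        monomial (∑ l, Finsupp.single (f l) 1) 1 := by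
      rw [monomial_sum_one]
      rfl
    rw [e1, mul_comm, C_mul_monomial, coeff_monomial, mul_one]
  have h1 : coeff m P = ∑ f : Fin r → Fin r,
      if (∑ l, Finsupp.single (f l) 1 : Fin r →₀ ℕ) = m then g f else 0 := by
    rw [hP, coeff_sum]
    exact Finset.sum_congr rfl fun f _ => hc f
  rw [hP0, coeff_zero, ← Finset.sum_filter] at h1
  rw [h1]
  refine Finset.sum_bij (fun (σ : Equiv.Perm (Fin r)) _ => (σ : Fin r → Fin r)) ?_ ?_ ?_ ?_
  · intro σ _
    rw [Finset.mem_filter]
    refine ⟨Finset.mem_univ _, ?_⟩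
    rw [hm]
    exact Equiv.sum_comp σ (fun l => (Finsupp.single l 1 : Fin r →₀ ℕ))
  · intro σ _ σ' _ h
    exact Equiv.coe_fn_injective h
  · intro f hf
    rw [Finset.mem_filter] at hf
    have hsurj : Function.Surjective f := by
      intro j
      by_contra hcon
      rw [not_exists] at hcon
      have h2 := DFunLike.congr_fun hf.2 j
      rw [hm, Finsupp.finsetSum_apply, Finsupp.finsetSum_apply] at h2
      have h3 : ∑ l : Fin r, (Finsupp.single (f l) 1 : Fin r →₀ ℕ) j = 0 :=
        Finset.sum_eq_zero fun l _ => by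
          rw [Finsupp.single_apply, if_neg (hcon l)]
      have h4 : ∑ l : Fin r, (Finsupp.single l 1 : Fin r →₀ ℕ) j = 1 := by
        rw [Finset.sum_eq_single j]
        · rw [Finsupp.single_eq_same]
        · intro l _ hl
          rw [Finsupp.single_apply, if_neg hl]
        · intro hj
          exact absurd (Finset.mem_univ j) hj
      omega
    exact ⟨Equiv.ofBijective f (Finite.surjective_iff_bijective.1 hsurj), Finset.mem_univ _, rfl⟩
  · intro σ _
    rfl

end CZero

/-- ROW C0. Polarization. -/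
theorem pos_of_sum {r c : ℕ} {lam : Fin 3 → ℕ} (Q : MvPolynomial (Fin r × Fin 3) ℂ)
    (hQ : Multi c r Q) (hS : Semi lam Q) (p : Fin r → Pt)
    (hp : ∑ σ : Equiv.Perm (Fin r), evp Q (fun l => p (σ l)) ≠ 0) : Pos r c 3 lam := by
  obtain ⟨x, hx, hxv⟩ := hwf_of Q hQ hS
  refine ⟨x, hx, ?_⟩
  rintro rfl
  refine hp (CZero.sum_perm_eq_zero (fun f => evp Q (fun l => p (f l))) fun τ => ?_)
  have h1 := hxv (CZero.ms p τ)
  have h2 : (evalPow r (ev c (CZero.ms p τ))) (0 : Pleth r c 3) = 0 :=
    LinearMap.map_zero (evalPow r (ev c (CZero.ms p τ)))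
  have h3 : integ (CZero.ms p τ) (evp Q) = 0 := h1.symm.trans h2
  rw [CZero.integ_ms] at h3
  exact h3

end Vale.Agent.P181.H553
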