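import Vale.Agent.P181.R2.H553.Defs

/-!
P181.ThreeRowBulk, ROW 7: a nonzero function of every weight `(*, s, t)` far from the first wall.
-/

set_option autoImplicit false

open scoped TensorProduct
open MvPolynomial

namespace Vale.Agent.P181.H553

open Vale.Agent.P181 Vale.Agent.P181.H280 Vale.Agent.P181.H179

namespace RowSeven

/-- There is a nonzero function of weight `(*, s, t)`. -/
def EE (a d s t : ℕ) : Prop :=
  ∃ f : Meas → ℂ, f ≠ 0 ∧ ∃ l : ℕ, l + s + t = a * d ∧ HWF a d ![l, s, t] f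

/-- ROW 1c, 1d as hypotheses. -/
def MulStmt : Prop :=
  ∀ {a d₁ d₂ : ℕ} {l₁ l₂ : Fin 3 → ℕ} {f₁ f₂ : Meas → ℂ}, HWF a d₁ l₁ f₁ →
    HWF a d₂ l₂ f₂ → HWF a (d₁ + d₂) (l₁ + l₂) (f₁ * f₂)

/-- ROW 1d. -/
def LineStmt : Prop :=
  ∀ {a d : ℕ} {lam : Fin 3 → ℕ} {f : Meas → ℂ}, HWF a d lam f → ∀ c c' : Meas,
    ∃ P : Polynomial ℂ, ∀ τ : ℂ, f (c + τ • c') = P.eval τ

/-- The product of two nonzero functions is nonzero. -/
lemma mul_ne (hline : LineStmt) {a d₁ d₂ : ℕ} {l₁ l₂ : Fin 3 → ℕ} {f₁ f₂ : Meas → ℂ}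
    (h₁ : HWF a d₁ l₁ f₁) (h₂ : HWF a d₂ l₂ f₂) (n₁ : f₁ ≠ 0) (n₂ : f₂ ≠ 0) : f₁ * f₂ ≠ 0 := by
  obtain ⟨c₁, hc₁⟩ := Function.ne_iff.1 n₁
  obtain ⟨c₂, hc₂⟩ := Function.ne_iff.1 n₂
  obtain ⟨P, hP⟩ := hline h₁ c₁ (c₂ - c₁)
  obtain ⟨R, hR⟩ := hline h₂ c₁ (c₂ - c₁)
  have hP0 : P ≠ 0 := by
    rintro rfl
    have := hP 0
    rw [zero_smul, add_zero, Polynomial.eval_zero] at this
    exact hc₁ this
  have hR0 : R ≠ 0 := by
    rintro rfl
    have := hR 1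
    rw [one_smul, add_sub_cancel, Polynomial.eval_zero] at this
    exact hc₂ this
  intro h
  refine mul_ne_zero hP0 hR0 (Polynomial.funext fun τ => ?_)
  have := congrFun h (c₁ + τ • (c₂ - c₁))
  rw [Pi.mul_apply, hP, hR, Pi.zero_apply] at this
  rw [Polynomial.eval_mul, this, Polynomial.eval_zero]

lemma EE.mul (hmul : MulStmt) (hline : LineStmt) {a d₁ d₂ s₁ s₂ t₁ t₂ : ℕ} (h₁ : EE a d₁ s₁ t₁)
    (h₂ : EE a d₂ s₂ t₂) : EE a (d₁ + d₂) (s₁ + s₂) (t₁ + t₂) := by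
  obtain ⟨f₁, n₁, l₁, e₁, w₁⟩ := h₁
  obtain ⟨f₂, n₂, l₂, e₂, w₂⟩ := h₂
  refine ⟨f₁ * f₂, mul_ne hline w₁ w₂ n₁ n₂, l₁ + l₂, ?_, ?_⟩
  · rw [mul_add, ← e₁, ← e₂]
    ring
  · have := hmul w₁ w₂
    have hv : (![l₁, s₁, t₁] : Fin 3 → ℕ) + ![l₂, s₂, t₂] = ![l₁ + l₂, s₁ + s₂, t₁ + t₂] := by
      funext i
      fin_cases i <;> rfl
    rwa [hv] at this

lemma EE.cast {a d s t d' s' t' : ℕ} (h : EE a d s t) (hd : d = d') (hs : s = s') (ht : t = t') :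
    EE a d' s' t' := hd ▸ hs ▸ ht ▸ h

lemma EE.rep (hmul : MulStmt) (hline : LineStmt) {a d s t d' s' t' : ℕ} (h : EE a d s t)
    (h' : EE a d' s' t') (k : ℕ) : EE a (d + k * d') (s + k * s') (t + k * t') := by
  induction k with
  | zero => exact h.cast (by simp) (by simp) (by simp)
  | succ k ih => exact (ih.mul hmul hline h').cast (by ring) (by ring) (by ring)

/-- The odd function on six points. -/
theorem exists_thirteen
    (hmeas : ∀ (a : ℕ) (t : ℕ → ℕ → ℂ), ∃ c : Meas, ∀ u v, u + v ≤ a → mom a u v c = t u v)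
    (hsix : ∀ {a K₀ i j : ℕ} (_ : 0 < i) (_ : 0 < K₀) (_ : Even (i + j)) (_ : Even K₀)
      (_ : j ≤ K₀) (_ : i + K₀ ≤ a) (_ : i + j ≤ a),
      ∃ f : Meas → ℂ, HWF a 6 ![6 * a - 2 * (i + K₀), i + K₀, i + K₀] f ∧
        ∀ c : Meas,
          (∀ u v u' v', 0 < u + v → 0 < u' + v' → u + u' + (v + v') = i + j →
            mom a u v c * mom a u' v' c = 0) →
          (∀ u v u' v', 0 < u + v → 0 < u' + v' → u + u' + (v + v') = K₀ + i - j →
            mom a u v c * mom a u' v' c = 0) →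
          (∀ u v u' v', 0 < u + v → 0 < u' + v' → u + u' + (v + v') = K₀ →
            mom a u v c * mom a u' v' c = 0) →
          (∀ u v, u + v = K₀ + i - j → 0 < v → mom a u v c = 0) →
          (∀ u v, u + v = K₀ → 0 < u → mom a u v c = 0) →
          f c = 8 * (-1) ^ i * mom a 0 0 c ^ 3 * mom a j i c * mom a (K₀ + i - j) 0 c *
            mom a 0 K₀ c)
    {a : ℕ} (ha : 13 ≤ a) : EE a 6 13 13 := by
  obtain ⟨f, hf, hval⟩ := hsix (a := a) (K₀ := 10) (i := 3) (j := 1) (by norm_num) (by norm_num)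
    (by decide) (by decide) (by norm_num) (by omega) (by omega)
  obtain ⟨c, hc⟩ := hmeas a (fun u v => if (u = 0 ∧ v = 0) ∨ (u = 1 ∧ v = 3) ∨ (u = 12 ∧ v = 0) ∨
    (u = 0 ∧ v = 10) then 1 else 0)
  have hz : ∀ u v, u + v ≤ a → ¬ ((u = 0 ∧ v = 0) ∨ (u = 1 ∧ v = 3) ∨ (u = 12 ∧ v = 0) ∨
      (u = 0 ∧ v = 10)) → mom a u v c = 0 := fun u v huv hn => by
    rw [hc u v huv, if_neg hn]
  have ho : ∀ u v, u + v ≤ a → ((u = 0 ∧ v = 0) ∨ (u = 1 ∧ v = 3) ∨ (u = 12 ∧ v = 0) ∨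
      (u = 0 ∧ v = 10)) → mom a u v c = 1 := fun u v huv hn => by
    rw [hc u v huv, if_pos hn]
  have hprod : ∀ k, k = 4 ∨ k = 12 ∨ k = 10 → ∀ u v u' v', 0 < u + v → 0 < u' + v' →
      u + u' + (v + v') = k → mom a u v c * mom a u' v' c = 0 := by
    intro k hk u v u' v' h1 h2 h3
    by_cases hcase : (u = 0 ∧ v = 0) ∨ (u = 1 ∧ v = 3) ∨ (u = 12 ∧ v = 0) ∨ (u = 0 ∧ v = 10)
    · rw [hz u' v' (by omega) (by omega), mul_zero]
    · rw [hz u v (by omega) hcase, zero_mul]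
  have hv := hval c (hprod 4 (by omega)) (hprod 12 (by omega)) (hprod 10 (by omega))
    (fun u v h1 h2 => hz u v (by omega) (by omega)) (fun u v h1 h2 => hz u v (by omega) (by omega))
  have hne : f c ≠ 0 := by
    have e1 : mom a (10 + 3 - 1) 0 c = 1 := ho 12 0 (by omega) (by omega)
    rw [hv, ho 0 0 (by omega) (by omega), ho 1 3 (by omega) (by omega), e1,
      ho 0 10 (by omega) (by omega)]
    norm_num
  refine ⟨f, fun h => hne (by rw [h]; rfl), 6 * a - 2 * 13, by omega, hf⟩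

/-- Division with remainder. -/
theorem exists_E_of (hmul : MulStmt) (hline : LineStmt)
    (hone : ∀ a : ℕ, ∃ f : Meas → ℂ, f ≠ 0 ∧ HWF a 1 ![a, 0, 0] f)
    (htwo : ∀ (a q : ℕ), Even q → q ≤ a → ∃ f : Meas → ℂ, f ≠ 0 ∧ HWF a 2 ![2 * a - q, q, 0] f)
    (hthree : ∀ (a q : ℕ), Even q → q ≤ a →
      ∃ f : Meas → ℂ, f ≠ 0 ∧ HWF a 3 ![3 * a - 2 * q, q, q] f)
    (hodd : ∀ (a : ℕ), 3 ≤ a → ∃ f : Meas → ℂ, f ≠ 0 ∧ HWF a 3 ![3 * a - 3, 3, 0] f)
    {a : ℕ} (h13 : EE a 6 13 13)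
    {d s t : ℕ} (ha : 13 ≤ a) (ht : 13 ≤ t) (hts : t ≤ s) (h1 : s ≠ t + 1)
    (h : 2 * s + t + 14 * (a - 1) ≤ (a - 1) * d) :
    ∃ f : Meas → ℂ, f ≠ 0 ∧ HWF a d ![a * d - s - t, s, t] f := by
  have g1 : EE a 1 0 0 := by
    obtain ⟨f, n, w⟩ := hone a
    exact ⟨f, n, a, by omega, w⟩
  have g2 : ∀ q, Even q → q ≤ a → EE a 2 q 0 := fun q hq hqa => by
    obtain ⟨f, n, w⟩ := htwo a q hq hqa
    exact ⟨f, n, 2 * a - q, by omega, w⟩
  have g3 : ∀ q, Even q → q ≤ a → EE a 3 q q := fun q hq hqa => by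
    obtain ⟨f, n, w⟩ := hthree a q hq hqa
    exact ⟨f, n, 3 * a - 2 * q, by omega, w⟩
  have g4 : EE a 3 3 0 := by
    obtain ⟨f, n, w⟩ := hodd a (by omega)
    exact ⟨f, n, 3 * a - 3, by omega, w⟩
  -- the even number `e`
  obtain ⟨e, he, hea, hae⟩ : ∃ e, Even e ∧ e ≤ a ∧ a ≤ e + 1 := by
    rcases Nat.even_or_odd a with h2 | ⟨q, hq⟩
    · exact ⟨a, h2, le_rfl, by omega⟩
    · exact ⟨2 * q, even_two_mul q, by omega, by omega⟩
  have he0 : 0 < e := by omega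
  -- an even number is divided by `e` with an even remainder
  have hdiv : ∀ x : ℕ, Even x → ∃ A r, Even r ∧ r ≤ a ∧ x = A * e + r := by
    intro x hx
    have hx1 := Nat.div_add_mod x e
    refine ⟨x / e, x % e, ?_, ((Nat.mod_lt x he0).le.trans hea), ?_⟩
    · have h2 : Even (e * (x / e)) := he.mul_right _
      have h3 : Even (e * (x / e) + x % e) := by rw [hx1]; exact hx
      exact (Nat.even_add.1 h3).1 h2
    · rw [mul_comm]
      exact hx1.symm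
  -- the part of `t`
  obtain ⟨dt, ht1, ht2⟩ : ∃ dt, EE a dt t t ∧ (a - 1) * dt ≤ 3 * t + 9 * (a - 1) := by
    rcases Nat.even_or_odd t with hev | hod
    · obtain ⟨A, r, hr, hra, hx⟩ := hdiv t hev
      refine ⟨3 + A * 3, ((g3 r hr hra).rep hmul hline (g3 e he hea) A).cast rfl (by omega)
        (by omega), ?_⟩
      have h2 : (a - 1) * A ≤ A * e := by
        rw [mul_comm]
        exact Nat.mul_le_mul_left _ (by omega)
      have h3 : (a - 1) * (3 + A * 3) = 3 * (a - 1) + 3 * ((a - 1) * A) := by ring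
      rw [h3]
      omega
    · obtain ⟨x, hx0⟩ := Nat.exists_eq_add_of_le ht
      have hxe : Even x := by
        rw [hx0] at hod
        have := hod
        rw [Nat.odd_add] at this
        exact this.1 (by decide)
      obtain ⟨A, r, hr, hra, hx⟩ := hdiv x hxe
      refine ⟨3 + A * 3 + 6, (((g3 r hr hra).rep hmul hline (g3 e he hea) A).mul hmul hline
        h13).cast rfl (by omega) (by omega), ?_⟩
      have h2 : (a - 1) * A ≤ A * e := by
        rw [mul_comm]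
        exact Nat.mul_le_mul_left _ (by omega)
      have h3 : (a - 1) * (3 + A * 3 + 6) = 9 * (a - 1) + 3 * ((a - 1) * A) := by ring
      rw [h3]
      omega
  -- the part of `s - t`
  obtain ⟨x, hx0⟩ := Nat.exists_eq_add_of_le hts
  obtain ⟨dx, hx1, hx2⟩ : ∃ dx, EE a dx x 0 ∧ (a - 1) * dx ≤ 2 * x + 5 * (a - 1) := by
    rcases Nat.even_or_odd x with hev | hod
    · obtain ⟨A, r, hr, hra, hx⟩ := hdiv x hev
      refine ⟨2 + A * 2, ((g2 r hr hra).rep hmul hline (g2 e he hea) A).cast rfl (by omega)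
        (by omega), ?_⟩
      have h2 : (a - 1) * A ≤ A * e := by
        rw [mul_comm]
        exact Nat.mul_le_mul_left _ (by omega)
      have h3 : (a - 1) * (2 + A * 2) = 2 * (a - 1) + 2 * ((a - 1) * A) := by ring
      rw [h3]
      omega
    · have hx3 : 3 ≤ x := by
        rcases hod with ⟨q, hq⟩
        omega
      obtain ⟨y, hy0⟩ := Nat.exists_eq_add_of_le hx3
      have hye : Even y := by
        rw [hy0] at hod
        have := hod
        rw [Nat.odd_add] at this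
        exact this.1 (by decide)
      obtain ⟨A, r, hr, hra, hy⟩ := hdiv y hye
      refine ⟨2 + A * 2 + 3, (((g2 r hr hra).rep hmul hline (g2 e he hea) A).mul hmul hline
        g4).cast rfl (by omega) (by omega), ?_⟩
      have h2 : (a - 1) * A ≤ A * e := by
        rw [mul_comm]
        exact Nat.mul_le_mul_left _ (by omega)
      have h3 : (a - 1) * (2 + A * 2 + 3) = 5 * (a - 1) + 2 * ((a - 1) * A) := by ring
      rw [h3]
      omega
  -- fill up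
  have hd : dt + dx ≤ d := by
    have h0 : 0 < a - 1 := by omega
    refine Nat.le_of_mul_le_mul_left ?_ h0
    rw [mul_add]
    omega
  obtain ⟨k, hk⟩ := Nat.exists_eq_add_of_le hd
  obtain ⟨f, n, l, hl, w⟩ : EE a d s t :=
    ((ht1.mul hmul hline hx1).rep hmul hline g1 k).cast (by omega) (by omega) (by omega)
  refine ⟨f, n, ?_⟩
  have hll : a * d - s - t = l := by omega
  rw [hll]
  exact w

end RowSeven

/-- ROW 7. A nonzero function of every weight `(*, s, t)` far from the first wall, from the rows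
1c, 1d, 3, 4a-4d and 5. -/
theorem exists_E_of_rows
    (hmul : ∀ {a d₁ d₂ : ℕ} {l₁ l₂ : Fin 3 → ℕ} {f₁ f₂ : Meas → ℂ}, HWF a d₁ l₁ f₁ →
      HWF a d₂ l₂ f₂ → HWF a (d₁ + d₂) (l₁ + l₂) (f₁ * f₂))
    (hline : ∀ {a d : ℕ} {lam : Fin 3 → ℕ} {f : Meas → ℂ}, HWF a d lam f → ∀ c c' : Meas,
      ∃ P : Polynomial ℂ, ∀ τ : ℂ, f (c + τ • c') = P.eval τ)
    (hmeas : ∀ (a : ℕ) (t : ℕ → ℕ → ℂ), ∃ c : Meas, ∀ u v, u + v ≤ a → mom a u v c = t u v)
    (hone : ∀ a : ℕ, ∃ f : Meas → ℂ, f ≠ 0 ∧ HWF a 1 ![a, 0, 0] f)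
    (htwo : ∀ (a q : ℕ), Even q → q ≤ a → ∃ f : Meas → ℂ, f ≠ 0 ∧ HWF a 2 ![2 * a - q, q, 0] f)
    (hthree : ∀ (a q : ℕ), Even q → q ≤ a →
      ∃ f : Meas → ℂ, f ≠ 0 ∧ HWF a 3 ![3 * a - 2 * q, q, q] f)
    (hodd : ∀ (a : ℕ), 3 ≤ a → ∃ f : Meas → ℂ, f ≠ 0 ∧ HWF a 3 ![3 * a - 3, 3, 0] f)
    (hsix : ∀ {a K₀ i j : ℕ} (_ : 0 < i) (_ : 0 < K₀) (_ : Even (i + j)) (_ : Even K₀)
      (_ : j ≤ K₀) (_ : i + K₀ ≤ a) (_ : i + j ≤ a),
      ∃ f : Meas → ℂ, HWF a 6 ![6 * a - 2 * (i + K₀), i + K₀, i + K₀] f ∧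
        ∀ c : Meas,
          (∀ u v u' v', 0 < u + v → 0 < u' + v' → u + u' + (v + v') = i + j →
            mom a u v c * mom a u' v' c = 0) →
          (∀ u v u' v', 0 < u + v → 0 < u' + v' → u + u' + (v + v') = K₀ + i - j →
            mom a u v c * mom a u' v' c = 0) →
          (∀ u v u' v', 0 < u + v → 0 < u' + v' → u + u' + (v + v') = K₀ →
            mom a u v c * mom a u' v' c = 0) →
          (∀ u v, u + v = K₀ + i - j → 0 < v → mom a u v c = 0) →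
          (∀ u v, u + v = K₀ → 0 < u → mom a u v c = 0) →
          f c = 8 * (-1) ^ i * mom a 0 0 c ^ 3 * mom a j i c * mom a (K₀ + i - j) 0 c *
            mom a 0 K₀ c)
    {a d s t : ℕ} (ha : 13 ≤ a) (ht : 13 ≤ t) (hts : t ≤ s) (h1 : s ≠ t + 1)
    (h : 2 * s + t + 14 * (a - 1) ≤ (a - 1) * d) :
    ∃ f : Meas → ℂ, f ≠ 0 ∧ HWF a d ![a * d - s - t, s, t] f :=
  RowSeven.exists_E_of hmul hline hone htwo hthree hodd
    (RowSeven.exists_thirteen hmeas hsix ha) ha ht hts h1 h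

end Vale.Agent.P181.H553
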