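import Vale.Agent.P181.R2.H853.FT7
import Vale.Agent.P181.R2.H207.Delta2
import Vale.Agent.P181.R2.H539.CountGap
import Vale.Agent.P181.R2.H539.Fac
import Vale.Agent.P181.R2.H415.Numer3

set_option autoImplicit false

open scoped TensorProduct

namespace Vale.Agent.P181.FR

open Vale.Agent.P181 Vale.Agent.P181.H280

/-- Foulkes' inequality for almost all partitions with at most `n + 3` rows, for all
`b ≥ (1 + δ) a`. -/
theorem almost_all (n : ℕ) {δ : ℝ} (hδ : 0 < δ) :
    ∃ C η : ℝ, 0 < C ∧ 0 < η ∧ ∀ a b : ℕ, 1 ≤ a → (1 + δ) * a ≤ b →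
      ({lam ∈ (Parts (n + 3) (a * b) : Set (Fin (n + 3) → Fin (a * b + 1))) |
        ¬ plethMult a b (n + 3) (fun i => lam i) ≤
          plethMult b a (n + 3) (fun i => lam i)}.ncard : ℝ) ≤
        C * (a : ℝ) ^ (-η) * (Parts (n + 3) (a * b)).card :=
  almost_all_of n
    (fun hd => final_delta_two (fun a b k lam => plethMult_le_fac a b k lam)
      (fun k _ hd' K => numer3 k hd' K) n hd)
    (count_gap n) hδ

end Vale.Agent.P181.FR
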