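import Vale.Agent.P181.R2.H959.FParts

set_option autoImplicit false

namespace Vale.Agent.P181.FR

open Vale.Agent.P181 Vale.Agent.P181.H280 Vale.Agent.P181.H54

/-- T7 from T5 and T6: the inequality holds for almost all partitions with at most `n + 3`
rows. -/
theorem almost_all_of (n : ℕ)
    (T5 : ∀ {δ : ℝ}, 0 < δ → ∃ C η : ℝ, 0 < C ∧ 0 < η ∧ η < 1 ∧
      ∀ (a b : ℕ) (lam : Fin (n + 3) → ℕ), (1 + δ) * a ≤ b → ∑ i, lam i = a * b →
        (lam 1 : ℝ) + C * (b + (a : ℝ) ^ (2 - η)) ≤ lam 0 →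
        (∀ i : Fin (n + 1), (lam i.succ.succ : ℝ) + C * (a : ℝ) ^ (2 - η) ≤
          lam i.succ.castSucc) →
        C * (a : ℝ) ^ (2 - η) ≤ lam (Fin.last _) →
        plethMult a b (n + 3) lam ≤ plethMult b a (n + 3) lam)
    (T6 : ∃ K : ℕ, ∀ s G : ℕ, 1 ≤ G → s * ((Parts (n + 3) s).filter (fun lam =>
      (∃ i : Fin (n + 2), (lam i.castSucc : ℕ) < lam i.succ + G) ∨
        (lam (Fin.last _) : ℕ) < G)).card ≤ K * G * (Parts (n + 3) s).card)
    {δ : ℝ} (hδ : 0 < δ) :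
    ∃ C η : ℝ, 0 < C ∧ 0 < η ∧ ∀ a b : ℕ, 1 ≤ a → (1 + δ) * a ≤ b →
      ({lam ∈ (Parts (n + 3) (a * b) : Set (Fin (n + 3) → Fin (a * b + 1))) |
        ¬ plethMult a b (n + 3) (fun i => lam i) ≤
          plethMult b a (n + 3) (fun i => lam i)}.ncard : ℝ) ≤
        C * (a : ℝ) ^ (-η) * (Parts (n + 3) (a * b)).card := by
  obtain ⟨C, η, hC, hη, hη1, h5⟩ := T5 hδ
  obtain ⟨K, h6⟩ := T6
  refine ⟨K * (2 * C + 1) + 1, η, by positivity, hη, fun a b ha hb => ?_⟩
  have ha1 : (1 : ℝ) ≤ a := by exact_mod_cast ha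
  have ha0 : (0 : ℝ) < a := by linarith
  have hab : (a : ℝ) ≤ b := by
    have : 0 ≤ δ * a := by positivity
    nlinarith
  have hb1 : (1 : ℝ) ≤ b := ha1.trans hab
  set X : ℝ := C * (b + (a : ℝ) ^ (2 - η)) with hX
  have hpow : 0 < (a : ℝ) ^ (2 - η) := Real.rpow_pos_of_pos ha0 _
  have hX0 : 0 < X := by positivity
  obtain ⟨G, hG⟩ : ∃ G : ℕ, G = ⌈X⌉₊ := ⟨_, rfl⟩
  have hXG : X ≤ G := by rw [hG]; exact Nat.le_ceil X
  have hGX : (G : ℝ) ≤ X + 1 := by rw [hG]; exact (Nat.ceil_lt_add_one hX0.le).le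
  have hG1 : 1 ≤ G := by
    rw [hG]
    exact Nat.one_le_ceil_iff.2 hX0
  have hXG' : C * (a : ℝ) ^ (2 - η) ≤ G := by
    refine le_trans ?_ hXG
    rw [hX]
    exact mul_le_mul_of_nonneg_left (by linarith) hC.le
  -- the bad partitions have a small gap
  set F := (Parts (n + 3) (a * b)).filter (fun lam =>
      (∃ i : Fin (n + 2), (lam i.castSucc : ℕ) < lam i.succ + G) ∨
        (lam (Fin.last _) : ℕ) < G) with hF
  have hsub : {lam ∈ (Parts (n + 3) (a * b) : Set (Fin (n + 3) → Fin (a * b + 1))) |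
        ¬ plethMult a b (n + 3) (fun i => lam i) ≤
          plethMult b a (n + 3) (fun i => lam i)} ⊆ (F : Set (Fin (n + 3) → Fin (a * b + 1))) := by
    rintro lam ⟨hlam, hbad⟩
    rw [hF, Finset.coe_filter]
    refine ⟨hlam, ?_⟩
    by_contra hcon
    rw [not_or, not_exists] at hcon
    obtain ⟨hgap, hlast⟩ := hcon
    have hgap' : ∀ i : Fin (n + 2), (lam i.succ : ℕ) + G ≤ (lam i.castSucc : ℕ) := fun i =>
      not_lt.1 (hgap i)
    have hlast' : G ≤ (lam (Fin.last _) : ℕ) := not_lt.1 hlast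
    have hgapR : ∀ i : Fin (n + 2), ((lam i.succ : ℕ) : ℝ) + G ≤ ((lam i.castSucc : ℕ) : ℝ) :=
      fun i => by exact_mod_cast hgap' i
    have hmem : lam ∈ Parts (n + 3) (a * b) := hlam
    unfold Parts at hmem
    rw [Finset.mem_filter] at hmem
    refine hbad (h5 a b (fun i => (lam i : ℕ)) hb hmem.2.2 ?_ ?_ ?_)
    · have h0 := hgapR 0
      have e0 : (0 : Fin (n + 2)).castSucc = (0 : Fin (n + 3)) := rfl
      have e1 : (0 : Fin (n + 2)).succ = (1 : Fin (n + 3)) := rfl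
      rw [e0, e1] at h0
      rw [← hX]
      linarith
    · intro i
      have h0 := hgapR i.succ
      linarith
    · have : (G : ℝ) ≤ ((lam (Fin.last _) : ℕ) : ℝ) := by exact_mod_cast hlast'
      linarith
  have hcard : ({lam ∈ (Parts (n + 3) (a * b) : Set (Fin (n + 3) → Fin (a * b + 1))) |
        ¬ plethMult a b (n + 3) (fun i => lam i) ≤
          plethMult b a (n + 3) (fun i => lam i)}.ncard : ℝ) ≤ F.card := by
    have h1 := Set.ncard_le_ncard hsub (Finset.finite_toSet F)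
    rw [Set.ncard_coe_finset] at h1
    exact_mod_cast h1
  refine hcard.trans ?_
  have h7 : (a : ℝ) * b * F.card ≤ K * G * (Parts (n + 3) (a * b)).card := by
    have := h6 (a * b) G hG1
    exact_mod_cast this
  set N : ℝ := ((Parts (n + 3) (a * b)).card : ℝ) with hN
  have hN0 : 0 ≤ N := by positivity
  have hab0 : 0 < (a : ℝ) * b := by positivity
  -- the size of `G`
  have hp1 : (a : ℝ) ^ (1 - η) = a * (a : ℝ) ^ (-η) := by
    rw [sub_eq_add_neg, Real.rpow_add ha0, Real.rpow_one]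
  have hp2 : (a : ℝ) ^ (2 - η) = a * (a : ℝ) ^ (1 - η) := by
    rw [show (2 : ℝ) - η = 1 + (1 - η) by ring, Real.rpow_add ha0, Real.rpow_one]
  have hp3 : 1 ≤ (a : ℝ) ^ (1 - η) := Real.one_le_rpow ha1 (by linarith)
  set Y : ℝ := (a : ℝ) ^ (1 - η) with hY
  have hGle : (G : ℝ) ≤ (2 * C + 1) * (Y * b) := by
    have h8 : X = C * b + C * (a * Y) := by rw [hX, hp2]; ring
    have h9 : C * b ≤ C * (Y * b) :=
      mul_le_mul_of_nonneg_left (by nlinarith) hC.le
    have h10 : C * (a * Y) ≤ C * (Y * b) :=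
      mul_le_mul_of_nonneg_left (by nlinarith) hC.le
    have h11 : 1 ≤ Y * b := by nlinarith
    nlinarith
  have h12 : (a : ℝ) * b * F.card ≤ a * b * (K * (2 * C + 1) * (a : ℝ) ^ (-η) * N) := by
    calc (a : ℝ) * b * F.card ≤ K * G * N := h7
      _ ≤ K * ((2 * C + 1) * (Y * b)) * N := by
        refine mul_le_mul_of_nonneg_right ?_ hN0
        exact mul_le_mul_of_nonneg_left hGle (by positivity)
      _ = a * b * (K * (2 * C + 1) * (a : ℝ) ^ (-η) * N) := by rw [hp1]; ring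
  have h13 := le_of_mul_le_mul_left h12 hab0
  have h14 : 0 ≤ (a : ℝ) ^ (-η) * N := by positivity
  calc (F.card : ℝ) ≤ K * (2 * C + 1) * (a : ℝ) ^ (-η) * N := h13
    _ ≤ (K * (2 * C + 1) + 1) * (a : ℝ) ^ (-η) * N := by nlinarith

end Vale.Agent.P181.FR
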